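import Vale.Agent.P173.Main

universe u v

open Set Topology CategoryTheory

namespace Vale.Agent.Results.P173.EG

theorem result : ∃ (Γ : Type) (_ : Group Γ),
    projectiveDimension
      (ModuleCat.of (MonoidAlgebra ℤ Γ) (Representation.trivial ℤ Γ ℤ).asModule) = 2 ∧
    ∀ (X : Type u) [TopologicalSpace X] [T2Space X] [CWComplex (univ : Set X)],
      (∀ n, 2 < n → IsEmpty (RelCWComplex.cell (univ : Set X) n)) →
      ∀ x : X, Nonempty (FundamentalGroup X x ≃* Γ) →
      ∀ (E : Type v) [TopologicalSpace E] (p : E → X), IsCoveringMap p → Function.Surjective p →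
        ¬ ContractibleSpace E := by
  obtain ⟨Γ, _, h1, h2⟩ := Vale.Agent.P173.main.{u}
  refine ⟨Γ, inferInstance, h1, fun X _ _ _ hdim x ⟨e⟩ E _ p hp hs hE => ?_⟩
  exact h2.false (Vale.Agent.P173.pres_of_cw X hdim x e E p hp hs).some

end Vale.Agent.Results.P173.EG
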